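import Vale.Agent.P331.H250.Ker

/-!
# Row A6(a): transfer to `S \ G₂`

`G` and `G₂` are exclusive thinnings of `S` at the same rate `γ`, `N` is a thinning of
`S \ G` at relative rate `ν / (1 - γ)`, which is a thinning of `S \ G \ G₂` at relative rate
`ν / (1 - 2 γ)`.  If for most `G` some `Y` has a small failure probability over `N ⊆ S \ G`,
then for most `G₂`, for most `G ⊆ S \ G₂`, some `Y` has a small failure probability over
`N ⊆ S \ G₂ \ G`.
-/

set_option autoImplicit false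
set_option linter.unusedSectionVars false

namespace Vale.Agent.P331.H619

open Finset Vale.Agent.P331.H489 Vale.Agent.P331.H250

section

variable {E : Type*} [Fintype E] [DecidableEq E]

open Classical in
/-- `1` if `P`, else `0` -/
noncomputable def ic (P : Prop) : ℝ := if P then 1 else 0

theorem ic_nonneg (P : Prop) : 0 ≤ ic P := by
  unfold ic
  split_ifs <;> norm_num

theorem ic_le_one (P : Prop) : ic P ≤ 1 := by
  unfold ic
  split_ifs <;> norm_num

theorem ic_true {P : Prop} (h : P) : ic P = 1 := if_pos h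

theorem ic_false {P : Prop} (h : ¬ P) : ic P = 0 := if_neg h

theorem ic_mono {P Q : Prop} (h : P → Q) : ic P ≤ ic Q := by
  by_cases hP : P
  · rw [ic_true hP, ic_true (h hP)]
  · rw [ic_false hP]
    exact ic_nonneg Q

theorem ic_not (P : Prop) : ic (¬ P) = 1 - ic P := by
  by_cases hP : P
  · rw [ic_true hP, ic_false (not_not.2 hP)]
    norm_num
  · rw [ic_false hP, ic_true hP]
    norm_num

theorem ic_congr {P Q : Prop} (h : P ↔ Q) : ic P = ic Q := by
  rw [propext h]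

/-- Markov's inequality -/
theorem markov {r : E → ℝ} (h0 : ∀ e, 0 ≤ r e) (h1 : ∀ e, r e ≤ 1) (S : Finset E)
    {f : Finset E → ℝ} (hf : ∀ G, G ⊆ S → 0 ≤ f G) {t : ℝ} (P : Finset E → Prop)
    (hP : ∀ G, G ⊆ S → P G → t ≤ f G) :
    t * TH r S (fun G => ic (P G)) ≤ TH r S f := by
  rw [← TH_mul]
  refine TH_mono h0 h1 S fun G hG => ?_
  by_cases h : P G
  · rw [ic_true h, mul_one]; exact hP G hG h
  · rw [ic_false h, mul_zero]; exact hf G hG

/-- **transfer** -/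
theorem transfer (S : Finset E) {γ ν : ℝ} (hγ0 : 0 ≤ γ) (hγ : 2 * γ < 1) (hν0 : 0 ≤ ν)
    (hν : ν ≤ 1 - 2 * γ) (h : Finset E → Finset E → Finset E → ℝ)
    (h0 : ∀ Y G N, 0 ≤ h Y G N) (ok : Finset E → Prop) (P : Finset E → Prop)
    {t t' τ a : ℝ} (ht : 0 ≤ t) (ht' : 0 < t') (ha : 0 < a)
    (hP : ∀ G, G ⊆ S → P G → ∃ Y, ok Y ∧ TH (fun _ => ν / (1 - γ)) (S \ G) (h Y G) ≤ t)
    (hτ : TH (fun _ => γ) S (fun G => ic (¬ P G)) ≤ τ) :
    TH (fun _ => γ) S (fun G₂ => ic (¬ (1 - a ≤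
      TH (fun _ => γ / (1 - γ)) (S \ G₂) (fun G => ic (∃ Y, ok Y ∧
        TH (fun _ => ν / (1 - 2 * γ)) ((S \ G₂) \ G) (h Y G) ≤ t'))))) ≤
      (τ + t / t') / a := by
  have g1 : 0 < 1 - γ := by linarith
  have g2 : 0 < 1 - 2 * γ := by linarith
  have r0 : ∀ e : E, 0 ≤ (fun _ : E => γ) e := fun _ => hγ0
  have r1 : ∀ e : E, (fun _ : E => γ) e ≤ 1 := fun _ => by
    show γ ≤ 1
    linarith
  have q0 : ∀ e : E, 0 ≤ (fun _ : E => γ / (1 - γ)) e := fun _ => div_nonneg hγ0 g1.le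
  have q1 : ∀ e : E, (fun _ : E => γ / (1 - γ)) e ≤ 1 := fun _ => by
    show γ / (1 - γ) ≤ 1
    rw [div_le_one g1]
    linarith
  have n0 : ∀ e : E, 0 ≤ (fun _ : E => ν / (1 - 2 * γ)) e := fun _ => div_nonneg hν0 g2.le
  have n1 : ∀ e : E, (fun _ : E => ν / (1 - 2 * γ)) e ≤ 1 := fun _ => by
    show ν / (1 - 2 * γ) ≤ 1
    rw [div_le_one g2]
    exact hν
  set Q : Finset E → Finset E → Prop := fun G G₂ => ∃ Y, ok Y ∧
    TH (fun _ => ν / (1 - 2 * γ)) ((S \ G₂) \ G) (h Y G) ≤ t' with hQ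
  have id1 : (1 - γ) * (γ / (1 - γ)) = γ := mul_div_cancel₀ _ g1.ne'
  have id2 : (1 - γ / (1 - γ)) * (ν / (1 - 2 * γ)) = ν / (1 - γ) := by
    have e1 : 1 - γ / (1 - γ) = (1 - 2 * γ) / (1 - γ) := by
      rw [eq_div_iff g1.ne', sub_mul, one_mul, div_mul_cancel₀ _ g1.ne']
      ring
    rw [e1, div_mul_div_comm, mul_comm (1 - γ), mul_div_mul_left _ _ g2.ne']
  -- for fixed `G`
  have e1 : ∀ G, G ⊆ S → TH (fun _ => γ / (1 - γ)) (S \ G) (fun G₂ => ic (¬ Q G G₂)) ≤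
      ic (¬ P G) + t / t' := by
    intro G hG
    by_cases hPG : P G
    · obtain ⟨Y, hY, hYt⟩ := hP G hG hPG
      have e2 : TH (fun _ => γ / (1 - γ)) (S \ G) (fun G₂ =>
          TH (fun _ => ν / (1 - 2 * γ)) ((S \ G) \ G₂) (h Y G)) =
          TH (fun _ => ν / (1 - γ)) (S \ G) (h Y G) := by
        refine TH_TH_snd _ _ _ _ (fun e _ => id2) _
      have e3 : t' * TH (fun _ => γ / (1 - γ)) (S \ G) (fun G₂ => ic (¬ Q G G₂)) ≤
          TH (fun _ => γ / (1 - γ)) (S \ G) (fun G₂ =>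
          TH (fun _ => ν / (1 - 2 * γ)) ((S \ G) \ G₂) (h Y G)) := by
        refine markov q0 q1 _ (fun G₂ _ => TH_nonneg n0 n1 _ fun N _ => h0 _ _ _) _
          (fun G₂ _ hn => ?_)
        by_contra hc
        apply hn
        refine ⟨Y, hY, ?_⟩
        have : (S \ G₂) \ G = (S \ G) \ G₂ := by
          rw [sdiff_sdiff_comm]
        rw [this]
        exact (not_le.1 hc).le
      rw [ic_false (not_not.2 hPG), zero_add, le_div_iff₀ ht', mul_comm]
      exact e3.trans (e2.le.trans hYt)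
    · rw [ic_true hPG]
      have e4 : TH (fun _ => γ / (1 - γ)) (S \ G) (fun G₂ => ic (¬ Q G G₂)) ≤ 1 := by
        exact (TH_mono q0 q1 _ fun _ _ => ic_le_one _).trans_eq
          (TH_const (fun _ => γ / (1 - γ)) (S \ G) 1)
      have : 0 ≤ t / t' := div_nonneg ht ht'.le
      linarith
  have e5 : TH (fun _ => γ) S (fun G => TH (fun _ => γ / (1 - γ)) (S \ G)
      (fun G₂ => ic (¬ Q G G₂))) ≤ τ + t / t' := by
    calc _ ≤ TH (fun _ => γ) S (fun G => ic (¬ P G) + t / t') := TH_mono r0 r1 _ e1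
      _ = TH (fun _ => γ) S (fun G => ic (¬ P G)) + t / t' := by
          rw [TH_add, TH_const]
      _ ≤ τ + t / t' := by linarith
  have e6 : TH (fun _ => γ) S (fun G => TH (fun _ => γ / (1 - γ)) (S \ G)
      (fun G₂ => ic (¬ Q G G₂))) =
      TH (fun _ => γ) S (fun G₂ => TH (fun _ => γ / (1 - γ)) (S \ G₂)
      (fun G => ic (¬ Q G G₂))) :=
    TH_TH_swap (fun _ => γ) (fun _ => γ / (1 - γ)) (fun _ => γ) (fun _ => γ / (1 - γ)) S
      (fun _ _ => id1) (fun _ _ => id1) (fun G G₂ => ic (¬ Q G G₂))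
  rw [e6] at e5
  rw [le_div_iff₀ ha, mul_comm]
  refine le_trans ?_ e5
  refine markov r0 r1 S (fun G₂ _ => TH_nonneg q0 q1 _ fun _ _ => ic_nonneg _) _
    (fun G₂ _ hn => ?_)
  have e7 : TH (fun _ => γ / (1 - γ)) (S \ G₂) (fun G => ic (¬ Q G G₂)) =
      1 - TH (fun _ => γ / (1 - γ)) (S \ G₂) (fun G => ic (Q G G₂)) := by
    have : (fun G => ic (¬ Q G G₂)) = fun G => (1 : ℝ) - ic (Q G G₂) :=
      funext fun G => ic_not _
    rw [this, TH_sub, TH_const]
  rw [e7]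
  have := not_le.1 hn
  linarith

end

end Vale.Agent.P331.H619
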