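import Mathlib
import Vale.Agent.P331.H489.Ex

/-!
# Nested up-sets and cheap unions

`D 0 ⊆ D 1 ⊆ ... ` are up-sets of subsets of a finite set `E`, `D l` depending only on the
elements of level at most `l`.  If `D (l+1) \ D l` has small measure at the rate
`c = 4 p / (1 + p)^2`, then `D n` is contained in a union of up-sets `L l`, `l ≤ n`, `L l`
depending only on the elements of level at most `l`, and `L l` has small measure at rate `p`.

Exact rates: with `s = 2 p / (1 + p)` and `d = (1 + p) / 2`,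
`Ber(p) ∪ Ber(p / (1 + p)) = Ber(s)`, thinned by `d` it is `Ber(p)`;
`Ber(s) ∪ Ber(s) = Ber(c)`, thinned by `d` it is `Ber(s)`.
-/

set_option autoImplicit false
set_option linter.unusedSectionVars false

namespace Vale.Agent.P331.H619

open Finset Vale.Agent.P331.H489

section

variable {E L M C : Type*} [Fintype E] [DecidableEq E] [Fintype L] [DecidableEq L]
  [Fintype M] [DecidableEq M] [Fintype C] [DecidableEq C]

/-- pushing labels forward, the map may depend on the element -/
theorem EX_map (f : E → L → C) (w : E → L → ℝ) (F : (E → C) → ℝ) :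
    EX w (fun ω => F (fun e => f e (ω e))) =
      EX (fun e c => ∑ l with f e l = c, w e l) F := by
  unfold EX
  have h : ∀ κ : E → C, (∏ e, ∑ l with f e l = κ e, w e l) =
      ∑ ω : E → L with (fun e => f e (ω e)) = κ, ∏ e, w e (ω e) := by
    intro κ
    rw [Finset.prod_univ_sum]
    refine sum_congr ?_ fun _ _ => rfl
    ext ω
    simp only [Fintype.mem_piFinset, mem_filter, mem_univ, true_and]
    exact funext_iff.symm
  simp only [h, sum_mul]
  rw [← sum_fiberwise_of_maps_to (s := univ) (t := univ)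
    (g := fun ω : E → L => fun e => f e (ω e)) (fun _ _ => mem_univ _)]
  refine sum_congr rfl fun κ _ => sum_congr rfl fun ω hω => ?_
  rw [(mem_filter.1 hω).2]

/-- two labellings with the same law of the derived labels -/
theorem couple (f : E → L → C) (g : E → M → C) (w : E → L → ℝ) (w' : E → M → ℝ)
    (h : ∀ e c, ∑ l with f e l = c, w e l = ∑ m with g e m = c, w' e m)
    (F : (E → C) → ℝ) :
    EX w (fun ω => F (fun e => f e (ω e))) = EX w' (fun ω => F (fun e => g e (ω e))) := by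
  rw [EX_map, EX_map]
  congr 1
  funext e c
  exact h e c

end

section

variable {E : Type*} [Fintype E] [DecidableEq E]

/-- Bernoulli weights -/
def bw (r : E → ℝ) : E → Bool → ℝ := fun e b => if b then r e else 1 - r e

/-- expectation with respect to independent elements, `e` with probability `r e` -/
def Pr (r : E → ℝ) (F : (E → Bool) → ℝ) : ℝ := EX (bw r) F

/-- a rate vector -/
def Rate (r : E → ℝ) : Prop := ∀ e, 0 ≤ r e ∧ r e ≤ 1

theorem bw_nonneg {r : E → ℝ} (hr : Rate r) : ∀ e l, 0 ≤ bw r e l := by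
  intro e l
  cases l
  · simpa [bw] using (hr e).2
  · simpa [bw] using (hr e).1

theorem bw_sum (r : E → ℝ) : ∀ e, ∑ l, bw r e l = 1 := by
  intro e
  simp [bw]

theorem Pr_mono {r : E → ℝ} (hr : Rate r) {F G : (E → Bool) → ℝ} (h : ∀ ω, F ω ≤ G ω) :
    Pr r F ≤ Pr r G := EX_mono (bw_nonneg hr) h

theorem Pr_nonneg {r : E → ℝ} (hr : Rate r) {F : (E → Bool) → ℝ} (h : ∀ ω, 0 ≤ F ω) :
    0 ≤ Pr r F := EX_nonneg (bw_nonneg hr) h

theorem Pr_add (r : E → ℝ) (F G : (E → Bool) → ℝ) :
    Pr r (fun ω => F ω + G ω) = Pr r F + Pr r G := EX_add _ F G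

theorem Pr_sub (r : E → ℝ) (F G : (E → Bool) → ℝ) :
    Pr r (fun ω => F ω - G ω) = Pr r F - Pr r G := EX_sub _ F G

theorem Pr_mul (r : E → ℝ) (c : ℝ) (F : (E → Bool) → ℝ) :
    Pr r (fun ω => c * F ω) = c * Pr r F := EX_mul _ c F

theorem Pr_const (r : E → ℝ) (c : ℝ) : Pr r (fun _ => c) = c := EX_one _ (bw_sum r) c

theorem Pr_le_one {r : E → ℝ} (hr : Rate r) {F : (E → Bool) → ℝ} (h : ∀ ω, F ω ≤ 1) :
    Pr r F ≤ 1 := by
  rw [← Pr_const r 1]
  exact Pr_mono hr h

/-- union of two independent sets against thinning of the union -/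
theorem thin (a b c d : E → ℝ) (h1 : ∀ e, a e = c e * d e)
    (h2 : ∀ e, (1 - a e) * b e = c e * (1 - d e)) (F : (E → Bool) → (E → Bool) → ℝ) :
    Pr a (fun v => Pr b (fun u => F v (v ⊔ u))) =
      Pr c (fun x => Pr d (fun h => F (x ⊓ h) x)) := by
  unfold Pr
  rw [← EX_prod (bw a) (bw b) (fun v u => F v (v ⊔ u)),
    ← EX_prod (bw c) (bw d) (fun x h => F (x ⊓ h) x)]
  refine couple (fun _ (l : Bool × Bool) => (l.1, l.1 ⊔ l.2))
    (fun _ (l : Bool × Bool) => (l.1 ⊓ l.2, l.1)) _ _ ?_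
    (fun κ => F (fun e => (κ e).1) (fun e => (κ e).2))
  intro e k
  have h1e := h1 e
  have h2e := h2 e
  rcases k with ⟨_ | _, _ | _⟩ <;>
    simp [Finset.sum_filter, Fintype.sum_prod_type, bw] <;> nlinarith

/-- union of two independent sets is a Bernoulli set -/
theorem Pr_sup (a b s : E → ℝ) (h : ∀ e, (1 - a e) * (1 - b e) = 1 - s e)
    (F : (E → Bool) → ℝ) :
    Pr a (fun v => Pr b (fun u => F (v ⊔ u))) = Pr s F := by
  unfold Pr
  rw [← EX_prod (bw a) (bw b) (fun v u => F (v ⊔ u))]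
  refine couple (fun _ (l : Bool × Bool) => l.1 ⊔ l.2) (fun _ (l : Bool) => l) _ _ ?_ F
  intro e k
  have he := h e
  rcases k with _ | _ <;>
    simp [Finset.sum_filter, Fintype.sum_prod_type, bw] <;> nlinarith

/-- thinning of a Bernoulli set is a Bernoulli set -/
theorem Pr_inf (c d s : E → ℝ) (h : ∀ e, c e * d e = s e) (F : (E → Bool) → ℝ) :
    Pr c (fun x => Pr d (fun h => F (x ⊓ h))) = Pr s F := by
  unfold Pr
  rw [← EX_prod (bw c) (bw d) (fun x h => F (x ⊓ h))]
  refine couple (fun _ (l : Bool × Bool) => l.1 ⊓ l.2) (fun _ (l : Bool) => l) _ _ ?_ F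
  intro e k
  have he := h e
  rcases k with _ | _ <;>
    simp [Finset.sum_filter, Fintype.sum_prod_type, bw] <;> nlinarith

theorem Pr_rate_mono {c d s : E → ℝ} (hc : Rate c) (hd : Rate d) (h : ∀ e, c e * d e = s e)
    {F : (E → Bool) → ℝ} (hF : Monotone F) : Pr s F ≤ Pr c F := by
  rw [← Pr_inf c d s h F]
  refine Pr_mono hc fun x => ?_
  rw [← Pr_const d (F x)]
  exact Pr_mono hd fun h => hF inf_le_left

/-- Harris: two decreasing functions with values in `[0, 1]` -/
theorem harris {r : E → ℝ} (hr : Rate r) {N g : (E → Bool) → ℝ} (hN : Antitone N)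
    (hg : Antitone g) (hN1 : ∀ ω, N ω ≤ 1) (hg1 : ∀ ω, g ω ≤ 1) :
    Pr r N * Pr r g ≤ Pr r (fun ω => N ω * g ω) := by
  have hmu : ∀ a b : E → Bool, (∏ e, bw r e (a e)) * (∏ e, bw r e (b e)) ≤
      (∏ e, bw r e ((a ⊓ b) e)) * ∏ e, bw r e ((a ⊔ b) e) := by
    intro a b
    rw [← prod_mul_distrib, ← prod_mul_distrib]
    refine le_of_eq (prod_congr rfl fun e _ => ?_)
    simp only [Pi.inf_apply, Pi.sup_apply]
    rcases a e with _ | _ <;> rcases b e with _ | _ <;> simp [mul_comm]
  have := fkg (α := E → Bool) (β := ℝ) (μ := fun ω => ∏ e, bw r e (ω e))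
    (f := fun ω => 1 - N ω) (g := fun ω => 1 - g ω)
    (fun ω => prod_nonneg fun e _ => bw_nonneg hr e _) (fun ω => sub_nonneg.2 (hN1 ω))
    (fun ω => sub_nonneg.2 (hg1 ω)) (fun a b h => sub_le_sub_left (hN h) 1)
    (fun a b h => sub_le_sub_left (hg h) 1) hmu
  have h1 : ∑ ω : E → Bool, ∏ e, bw r e (ω e) = 1 := by
    have := Pr_const r 1
    simpa [Pr, EX] using this
  rw [h1, one_mul] at this
  change Pr r (fun ω => 1 - N ω) * Pr r (fun ω => 1 - g ω) ≤
    Pr r (fun ω => (1 - N ω) * (1 - g ω)) at this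
  have e1 : Pr r (fun ω => 1 - N ω) = 1 - Pr r N := by
    rw [Pr_sub, Pr_const]
  have e2 : Pr r (fun ω => 1 - g ω) = 1 - Pr r g := by
    rw [Pr_sub, Pr_const]
  have e3 : Pr r (fun ω => (1 - N ω) * (1 - g ω)) =
      1 - Pr r N - Pr r g + Pr r (fun ω => N ω * g ω) := by
    have : (fun ω => (1 - N ω) * (1 - g ω)) = fun ω => (1 - N ω - g ω) + N ω * g ω := by
      funext ω
      ring
    rw [this, Pr_add, Pr_sub (F := fun ω => 1 - N ω), e1]
  rw [e1, e2, e3] at this
  nlinarith

/-- the indicator function of a family of sets -/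
noncomputable def ind (S : Set (E → Bool)) : (E → Bool) → ℝ := S.indicator fun _ => 1

theorem ind_of_mem {S : Set (E → Bool)} {A : E → Bool} (h : A ∈ S) : ind S A = 1 :=
  Set.indicator_of_mem h _

theorem ind_of_notMem {S : Set (E → Bool)} {A : E → Bool} (h : A ∉ S) : ind S A = 0 :=
  Set.indicator_of_notMem h _

theorem ind_nonneg (S : Set (E → Bool)) (A : E → Bool) : 0 ≤ ind S A :=
  Set.indicator_nonneg (fun _ _ => zero_le_one) A

theorem ind_le_one (S : Set (E → Bool)) (A : E → Bool) : ind S A ≤ 1 :=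
  Set.indicator_le_self' (fun _ _ => zero_le_one) A

theorem ind_mono_set {S T : Set (E → Bool)} (h : S ⊆ T) (A : E → Bool) : ind S A ≤ ind T A :=
  Set.indicator_le_indicator_of_subset h (fun _ => zero_le_one) A

theorem ind_monotone {S : Set (E → Bool)} (h : IsUpperSet S) : Monotone (ind S) := by
  intro A B hAB
  by_cases hA : A ∈ S
  · rw [ind_of_mem hA, ind_of_mem (h hAB hA)]
  · rw [ind_of_notMem hA]
    exact ind_nonneg S B

/-- sets containing `A` -/
theorem Pr_above (r : E → ℝ) (A : E → Bool) (F : (E → Bool) → ℝ) :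
    Pr r (fun v => ind {v | A ≤ v} v * F v) =
      (∏ e, if A e then r e else 1) * Pr r (fun v => F (A ⊔ v)) := by
  have h1 : Pr r (fun v => ind {v | A ≤ v} v * F v) =
      EX (fun e b => if A e then (if b then r e else 0) else bw r e b) F := by
    unfold Pr EX
    refine sum_congr rfl fun v _ => ?_
    beta_reduce
    by_cases hv : A ≤ v
    · rw [ind_of_mem (S := {v | A ≤ v}) hv, one_mul]
      congr 1
      refine prod_congr rfl fun e _ => ?_
      have := hv e
      rcases hA : A e with _ | _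
      · simp
      · rw [hA] at this
        have hve : v e = true := Bool.eq_true_of_true_le this
        simp [bw, hve]
    · rw [ind_of_notMem (S := {v | A ≤ v}) hv, zero_mul, mul_zero]
      have : ∃ e, ¬ A e ≤ v e := by
        by_contra hc
        push Not at hc
        exact hv hc
      obtain ⟨e, he⟩ := this
      have hA : A e = true := by
        rcases h : A e with _ | _
        · rw [h] at he
          exact absurd (Bool.false_le _) he
        · rfl
      have hve : v e = false := by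
        rcases h : v e with _ | _
        · rfl
        · rw [h] at he
          exact absurd (Bool.le_true _) he
      rw [prod_eq_zero (mem_univ e) (by simp [hA, hve]), zero_mul]
  have h2 : Pr r (fun v => F (A ⊔ v)) =
      EX (fun e b => if A e then (if b then 1 else 0) else bw r e b) F := by
    have := EX_map (fun e (l : Bool) => A e ⊔ l) (bw r) F
    have h3 : (fun v : E → Bool => F (A ⊔ v)) = fun v => F (fun e => A e ⊔ v e) := rfl
    rw [Pr, h3, this]
    congr 1
    funext e b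
    rcases A e with _ | _ <;> rcases b with _ | _ <;>
      simp [Finset.sum_filter, bw]
  rw [h1, h2]
  unfold EX
  rw [mul_sum]
  refine sum_congr rfl fun v _ => ?_
  rw [← mul_assoc, ← prod_mul_distrib]
  congr 1
  refine prod_congr rfl fun e _ => ?_
  beta_reduce
  generalize v e = x
  generalize A e = y
  cases y <;> cases x <;> simp

/-- up-closure -/
def up (S : Set (E → Bool)) : Set (E → Bool) := {v | ∃ A ∈ S, A ≤ v}

theorem up_upper (S : Set (E → Bool)) : IsUpperSet (up S) := by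
  rintro v w hvw ⟨A, hA, hAv⟩
  exact ⟨A, hA, hAv.trans hvw⟩

/-- the Harris step over the up-closure of a family -/
theorem up_mass {p b s : E → ℝ} (hp : Rate p) (hb : Rate b)
    (hs : ∀ e, (1 - p e) * (1 - b e) = 1 - s e) {g : (E → Bool) → ℝ} (hg : Antitone g)
    (hg1 : ∀ ω, g ω ≤ 1) {η : ℝ} (T : Finset (E → Bool))
    (hT : ∀ A ∈ T, η ≤ Pr s (fun y => g (A ⊔ y))) :
    η * Pr p (ind (up (T : Set (E → Bool)))) ≤
      Pr p (fun v => Pr b (fun u => ind (up (T : Set (E → Bool))) v * g (v ⊔ u))) := by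
  induction T using Finset.induction_on with
  | empty =>
    have h0 : ∀ v, ind (up ((∅ : Finset (E → Bool)) : Set (E → Bool))) v = 0 := by
      intro v
      refine ind_of_notMem ?_
      rintro ⟨A, hA, _⟩
      simp at hA
    have h1 : ind (up ((∅ : Finset (E → Bool)) : Set (E → Bool))) = fun _ => (0 : ℝ) :=
      funext h0
    rw [h1]
    simp [Pr_const]
  | insert A T _ ih =>
    have ih' := ih fun B hB => hT B (mem_insert_of_mem hB)
    have hA := hT A (mem_insert_self A T)
    set U := up (T : Set (E → Bool)) with hU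
    have hUu : IsUpperSet U := up_upper _
    have hdec : ∀ v, ind (up ((insert A T : Finset (E → Bool)) : Set (E → Bool))) v =
        ind U v + ind {v | A ≤ v} v * (1 - ind U v) := by
      intro v
      by_cases h1 : v ∈ U
      · rw [ind_of_mem h1, ind_of_mem]
        · ring
        · obtain ⟨B, hB, hBv⟩ := h1
          exact ⟨B, by simp at hB; simp [hB], hBv⟩
      · rw [ind_of_notMem h1]
        by_cases h2 : A ≤ v
        · rw [ind_of_mem (S := {v | A ≤ v}) h2, ind_of_mem]
          · ring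
          · exact ⟨A, by simp, h2⟩
        · rw [ind_of_notMem (S := {v | A ≤ v}) h2, ind_of_notMem]
          · ring
          · rintro ⟨B, hB, hBv⟩
            simp only [coe_insert, Set.mem_insert_iff] at hB
            rcases hB with rfl | hB
            · exact h2 hBv
            · exact h1 ⟨B, hB, hBv⟩
    have e1 : Pr p (ind (up ((insert A T : Finset (E → Bool)) : Set (E → Bool)))) =
        Pr p (ind U) + Pr p (fun v => ind {v | A ≤ v} v * (1 - ind U v)) := by
      rw [← Pr_add]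
      congr 1
      exact funext hdec
    have e2 : Pr p (fun v => Pr b (fun u =>
        ind (up ((insert A T : Finset (E → Bool)) : Set (E → Bool))) v * g (v ⊔ u))) =
        Pr p (fun v => Pr b (fun u => ind U v * g (v ⊔ u))) +
        Pr p (fun v => ind {v | A ≤ v} v * ((1 - ind U v) * Pr b (fun u => g (v ⊔ u)))) := by
      rw [← Pr_add]
      congr 1
      funext v
      rw [← mul_assoc, ← Pr_mul b (ind {v | A ≤ v} v * (1 - ind U v)), ← Pr_add]
      congr 1
      funext u
      rw [hdec]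
      ring
    have e3 := Pr_above p A (fun v => 1 - ind U v)
    have e4 := Pr_above p A (fun v => (1 - ind U v) * Pr b (fun u => g (v ⊔ u)))
    have h5 : Pr p (fun v => 1 - ind U (A ⊔ v)) * Pr p (fun v => Pr b fun u => g (A ⊔ v ⊔ u)) ≤
        Pr p (fun v => (1 - ind U (A ⊔ v)) * Pr b (fun u => g (A ⊔ v ⊔ u))) := by
      refine harris hp ?_ ?_ ?_ ?_
      · intro v w hvw
        exact sub_le_sub_left (ind_monotone hUu (sup_le_sup_left hvw A)) 1
      · intro v w hvw
        exact Pr_mono hb fun u => hg (sup_le_sup_right (sup_le_sup_left hvw A) u)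
      · intro v
        linarith [ind_nonneg U (A ⊔ v)]
      · intro v
        exact Pr_le_one hb fun u => hg1 _
    have h6 : Pr p (fun v => Pr b fun u => g (A ⊔ v ⊔ u)) = Pr s (fun y => g (A ⊔ y)) := by
      have := Pr_sup p b s hs (fun y => g (A ⊔ y))
      rw [← this]
      simp only [sup_assoc]
    rw [h6] at h5
    have h7 : 0 ≤ Pr p (fun v => 1 - ind U (A ⊔ v)) :=
      Pr_nonneg hp fun v => by linarith [ind_le_one U (A ⊔ v)]
    have h8 : η * Pr p (fun v => 1 - ind U (A ⊔ v)) ≤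
        Pr p (fun v => (1 - ind U (A ⊔ v)) * Pr b (fun u => g (A ⊔ v ⊔ u))) := by
      calc η * Pr p (fun v => 1 - ind U (A ⊔ v))
          ≤ Pr s (fun y => g (A ⊔ y)) * Pr p (fun v => 1 - ind U (A ⊔ v)) :=
            mul_le_mul_of_nonneg_right hA h7
        _ = Pr p (fun v => 1 - ind U (A ⊔ v)) * Pr s (fun y => g (A ⊔ y)) := mul_comm _ _
        _ ≤ _ := h5
    have h9 : (0 : ℝ) ≤ ∏ e, if A e then p e else 1 := by
      refine prod_nonneg fun e _ => ?_
      split_ifs
      · exact (hp e).1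
      · exact zero_le_one
    have h10 := mul_le_mul_of_nonneg_left h8 h9
    rw [e1, e2, e3, e4]
    linarith

/-- `A` on the elements of level at most `l`, `B` on the others -/
def mix (lev : E → ℕ) (l : ℕ) (A B : E → Bool) : E → Bool :=
  fun e => if lev e ≤ l then A e else B e

/-- `S` depends only on the elements of level at most `l` -/
def Cyl (lev : E → ℕ) (l : ℕ) (S : Set (E → Bool)) : Prop :=
  ∀ A B : E → Bool, (∀ e, lev e ≤ l → A e = B e) → A ∈ S → B ∈ S

theorem Cyl.ind_eq {lev : E → ℕ} {l : ℕ} {S : Set (E → Bool)} (h : Cyl lev l S)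
    {A B : E → Bool} (hAB : ∀ e, lev e ≤ l → A e = B e) : ind S A = ind S B := by
  by_cases hA : A ∈ S
  · rw [ind_of_mem hA, ind_of_mem (h A B hAB hA)]
  · rw [ind_of_notMem hA, ind_of_notMem]
    exact fun hB => hA (h B A (fun e he => (hAB e he).symm) hB)

/-- probability that a thinning of `x` at the levels up to `l` and a new set above lie in `S` -/
noncomputable def GG (lev : E → ℕ) (l : ℕ) (p d : E → ℝ) (S : Set (E → Bool))
    (x : E → Bool) : ℝ :=
  Pr d (fun h => Pr p (fun w => ind S (mix lev l (x ⊓ h) w)))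

theorem mix_mono_left {lev : E → ℕ} {l : ℕ} {A A' B : E → Bool} (h : A ≤ A') :
    mix lev l A B ≤ mix lev l A' B := by
  intro e
  unfold mix
  split_ifs
  · exact h e
  · exact le_rfl

theorem mix_mono_right {lev : E → ℕ} {l : ℕ} {A B B' : E → Bool} (h : B ≤ B') :
    mix lev l A B ≤ mix lev l A B' := by
  intro e
  unfold mix
  split_ifs
  · exact le_rfl
  · exact h e

theorem GG_mono {lev : E → ℕ} {l : ℕ} {p d : E → ℝ} (hp : Rate p) (hd : Rate d)
    {S : Set (E → Bool)} (hS : IsUpperSet S) : Monotone (GG lev l p d S) := by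
  intro x y hxy
  refine Pr_mono hd fun h => Pr_mono hp fun w => ind_monotone hS ?_
  exact mix_mono_left (inf_le_inf_right h hxy)

theorem GG_nonneg {lev : E → ℕ} {l : ℕ} {p d : E → ℝ} (hp : Rate p) (hd : Rate d)
    (S : Set (E → Bool)) (x : E → Bool) : 0 ≤ GG lev l p d S x :=
  Pr_nonneg hd fun _ => Pr_nonneg hp fun _ => ind_nonneg S _

theorem GG_congr {lev : E → ℕ} {l : ℕ} (p d : E → ℝ) (S : Set (E → Bool)) {x y : E → Bool}
    (h : ∀ e, lev e ≤ l → x e = y e) : GG lev l p d S x = GG lev l p d S y := by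
  unfold GG
  congr 1
  funext k
  congr 1
  funext w
  congr 1
  funext e
  unfold mix
  split_ifs with he
  · simp only [Pi.inf_apply, h e he]
  · rfl

/-- the sets with small conditional probability -/
def Low (lev : E → ℕ) (l : ℕ) (p d : E → ℝ) (S : Set (E → Bool)) (τ : ℝ) :
    Set (E → Bool) := {x | GG lev l p d S x < τ}

/-- the family one level below -/
def Dn (lev : E → ℕ) (l : ℕ) (p d s : E → ℝ) (S : Set (E → Bool)) (τ η : ℝ) :
    Set (E → Bool) :=
  {A | Pr s (fun y => ind (Low lev l p d S τ) (A ⊔ y)) ≤ η}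

theorem Low_lower {lev : E → ℕ} {l : ℕ} {p d : E → ℝ} (hp : Rate p) (hd : Rate d)
    {S : Set (E → Bool)} (hS : IsUpperSet S) (τ : ℝ) : IsLowerSet (Low lev l p d S τ) := by
  intro x y hyx hx
  exact lt_of_le_of_lt (GG_mono hp hd hS hyx) hx

theorem ind_Low_anti {lev : E → ℕ} {l : ℕ} {p d : E → ℝ} (hp : Rate p) (hd : Rate d)
    {S : Set (E → Bool)} (hS : IsUpperSet S) (τ : ℝ) :
    Antitone (ind (Low lev l p d S τ)) := by
  intro x y hxy
  by_cases hy : y ∈ Low lev l p d S τ
  · rw [ind_of_mem hy, ind_of_mem (Low_lower hp hd hS τ hxy hy)]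
  · rw [ind_of_notMem hy]
    exact ind_nonneg _ x

theorem Dn_upper {lev : E → ℕ} {l : ℕ} {p d s : E → ℝ} (hp : Rate p) (hd : Rate d)
    (hs : Rate s) {S : Set (E → Bool)} (hS : IsUpperSet S) (τ η : ℝ) :
    IsUpperSet (Dn lev l p d s S τ η) := by
  intro A B hAB hA
  refine le_trans (Pr_mono hs fun y => ?_) hA
  exact ind_Low_anti hp hd hS τ (sup_le_sup_right hAB y)

theorem Low_cyl {lev : E → ℕ} {l : ℕ} (p d : E → ℝ) (S : Set (E → Bool)) (τ : ℝ) :
    Cyl lev l (Low lev l p d S τ) := by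
  intro A B h hA
  change GG lev l p d S B < τ
  rw [← GG_congr p d S h]
  exact hA

theorem Dn_cyl {lev : E → ℕ} {l : ℕ} (p d s : E → ℝ) (S : Set (E → Bool)) (τ η : ℝ) :
    Cyl lev l (Dn lev l p d s S τ η) := by
  intro A B h hA
  have : (fun y => ind (Low lev l p d S τ) (B ⊔ y)) =
      fun y => ind (Low lev l p d S τ) (A ⊔ y) := by
    funext y
    refine (Low_cyl p d S τ).ind_eq fun e he => ?_
    simp only [Pi.sup_apply, h e he]
  change Pr s (fun y => ind (Low lev l p d S τ) (B ⊔ y)) ≤ η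
  rw [this]
  exact hA

/-- resampling the elements above level `l` of a thinning -/
theorem resample (lev : E → ℕ) (l : ℕ) {c d p : E → ℝ} (h : ∀ e, c e * d e = p e)
    (S : Set (E → Bool)) {g : (E → Bool) → ℝ}
    (hg : ∀ x y : E → Bool, (∀ e, lev e ≤ l → x e = y e) → g x = g y) :
    Pr c (fun x => Pr d (fun h => ind S (x ⊓ h) * g x)) =
      Pr c (fun x => GG lev l p d S x * g x) := by
  have h1 : Pr c (fun x => GG lev l p d S x * g x) =
      Pr c (fun x => Pr d (fun h => Pr p (fun w => ind S (mix lev l (x ⊓ h) w) * g x))) := by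
    congr 1
    funext x
    rw [mul_comm, GG, ← Pr_mul]
    congr 1
    funext k
    rw [← Pr_mul]
    congr 1
    funext w
    ring
  rw [h1]
  unfold Pr
  rw [← EX_prod (bw c) (bw d) (fun x h => ind S (x ⊓ h) * g x)]
  have h2 : (EX (bw c) fun x => EX (bw d) fun h => EX (bw p) fun w =>
      ind S (mix lev l (x ⊓ h) w) * g x) =
      EX (fun e (t : Bool × (Bool × Bool)) => bw c e t.1 * (bw d e t.2.1 * bw p e t.2.2))
        (fun t => ind S (mix lev l ((fun e => (t e).1) ⊓ (fun e => (t e).2.1))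
          (fun e => (t e).2.2)) * g (fun e => (t e).1)) := by
    have := EX_prod (bw c) (fun e (t : Bool × Bool) => bw d e t.1 * bw p e t.2)
      (fun x (t : E → Bool × Bool) => ind S (mix lev l (x ⊓ (fun e => (t e).1))
          (fun e => (t e).2)) * g x)
    rw [this]
    congr 1
    funext x
    exact (EX_prod (bw d) (bw p) (fun h w => ind S (mix lev l (x ⊓ h) w) * g x)).symm
  rw [h2]
  have h3 : (fun t : E → Bool × Bool => ind S ((fun e => (t e).1) ⊓ fun e => (t e).2) *
      g (fun e => (t e).1)) = fun t => (fun κ : E → Bool × Bool =>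
        ind S (fun e => (κ e).1) * g (fun e => (κ e).2))
        (fun e => ((t e).1 ⊓ (t e).2, if lev e ≤ l then (t e).1 else false)) := by
    funext t
    beta_reduce
    congr 1
    refine hg _ _ fun e he => ?_
    simp [he]
  have h4 : (fun t : E → Bool × (Bool × Bool) =>
      ind S (mix lev l ((fun e => (t e).1) ⊓ (fun e => (t e).2.1)) (fun e => (t e).2.2)) *
        g (fun e => (t e).1)) = fun t => (fun κ : E → Bool × Bool =>
        ind S (fun e => (κ e).1) * g (fun e => (κ e).2))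
        (fun e => (if lev e ≤ l then (t e).1 ⊓ (t e).2.1 else (t e).2.2,
          if lev e ≤ l then (t e).1 else false)) := by
    funext t
    beta_reduce
    congr 1
    refine hg _ _ fun e he => ?_
    simp [he]
  rw [h3, h4]
  refine couple (fun e (l' : Bool × Bool) => (l'.1 ⊓ l'.2, if lev e ≤ l then l'.1 else false))
    (fun e (t : Bool × (Bool × Bool)) => (if lev e ≤ l then t.1 ⊓ t.2.1 else t.2.2,
          if lev e ≤ l then t.1 else false)) _ _ ?_
    (fun κ : E → Bool × Bool => ind S (fun e => (κ e).1) * g (fun e => (κ e).2))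
  intro e k
  have he := h e
  rcases k with ⟨_ | _, _ | _⟩ <;> by_cases hl : lev e ≤ l <;>
    simp [Finset.sum_filter, Fintype.sum_prod_type, bw, hl] <;> nlinarith

/-- step (1): the sets which are in `S` and not in the family below have a cheap up-closure -/
theorem mass (lev : E → ℕ) (l : ℕ) {p b d s : E → ℝ} (hp : Rate p) (hb : Rate b)
    (hd : Rate d) (hs : Rate s) (h1 : ∀ e, (1 - p e) * (1 - b e) = 1 - s e)
    (h2 : ∀ e, s e * d e = p e) {S : Set (E → Bool)} (hS : IsUpperSet S) {τ : ℝ}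
    (hτ : 0 ≤ τ) (η : ℝ) :
    η * Pr p (ind (up (S \ Dn lev l p d s S τ η))) ≤ τ := by
  classical
  set g := ind (Low lev l p d S τ) with hg
  have hga : Antitone g := ind_Low_anti hp hd hS τ
  obtain ⟨T, hT⟩ : ∃ T : Finset (E → Bool),
      (T : Set (E → Bool)) = S \ Dn lev l p d s S τ η :=
    ⟨(S \ Dn lev l p d s S τ η).toFinset, by simp⟩
  have h3 : ∀ A ∈ T, η ≤ Pr s (fun y => g (A ⊔ y)) := by
    intro A hA
    have hA' : A ∈ S \ Dn lev l p d s S τ η := by
      rw [← hT]
      exact hA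
    exact le_of_lt (not_le.1 hA'.2)
  have h4 := up_mass hp hb h1 hga (fun ω => ind_le_one _ ω) T h3
  rw [hT] at h4
  refine h4.trans ?_
  have h5 : up (S \ Dn lev l p d s S τ η) ⊆ S := by
    rintro v ⟨A, hA, hAv⟩
    exact hS hAv hA.1
  calc Pr p (fun v => Pr b (fun u => ind (up (S \ Dn lev l p d s S τ η)) v * g (v ⊔ u)))
      ≤ Pr p (fun v => Pr b (fun u => ind S v * g (v ⊔ u))) :=
        Pr_mono hp fun v => Pr_mono hb fun u =>
          mul_le_mul_of_nonneg_right (ind_mono_set h5 v) (ind_nonneg _ _)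
    _ = Pr s (fun x => Pr d (fun h => ind S (x ⊓ h) * g x)) := by
        refine thin p b s d (fun e => (h2 e).symm) (fun e => ?_)
          (fun v x => ind S v * g x)
        have := h1 e
        have := h2 e
        nlinarith
    _ = Pr s (fun x => GG lev l p d S x * g x) :=
        resample lev l h2 S fun x y hxy => (Low_cyl p d S τ).ind_eq hxy
    _ ≤ Pr s (fun _ => τ) := by
        refine Pr_mono hs fun x => ?_
        by_cases hx : x ∈ Low lev l p d S τ
        · rw [hg, ind_of_mem hx, mul_one]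
          exact le_of_lt hx
        · rw [hg, ind_of_notMem hx, mul_zero]
          exact hτ
    _ = τ := Pr_const s τ

/-- step (2): from level `l + 1` to level `l` -/
theorem step (lev : E → ℕ) (l : ℕ) {p d s c : E → ℝ}
    (hd : Rate d) (hs : Rate s) (hc : Rate c) (h2 : ∀ e, s e * d e = p e)
    (h3 : ∀ e, (1 - s e) * (1 - s e) = 1 - c e) (h4 : ∀ e, c e * d e = s e)
    {S D D' : Set (E → Bool)} (hS : IsUpperSet S) (hD : Cyl lev l D) {τ η : ℝ}
    (hτ : 0 < τ) (hη : 0 ≤ η) :
    Pr s (fun v => Pr s (fun y => ind (Dn lev l p d s S τ η) v * ind Dᶜ (v ⊔ y))) ≤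
      η + (Pr s (fun v => Pr s (fun y => ind S v * ind D'ᶜ (v ⊔ y))) +
        Pr c (ind (D' \ D))) / τ := by
  set Lo := Low lev l p d S τ with hLo
  have e1 : Pr s (fun v => Pr s (fun y => ind (Dn lev l p d s S τ η) v * ind Dᶜ (v ⊔ y))) ≤
      Pr s (fun v => Pr s (fun y => ind (Dn lev l p d s S τ η) v * ind Lo (v ⊔ y))) +
      Pr s (fun v => Pr s (fun y => ind Dᶜ (v ⊔ y) * ind Loᶜ (v ⊔ y))) := by
    rw [← Pr_add]
    refine Pr_mono hs fun v => ?_
    rw [← Pr_add]
    refine Pr_mono hs fun y => ?_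
    by_cases hx : v ⊔ y ∈ Lo
    · have hx' : v ⊔ y ∉ Loᶜ := fun h => h hx
      rw [ind_of_mem hx, ind_of_notMem hx', mul_one, mul_zero, add_zero]
      exact mul_le_of_le_one_right (ind_nonneg _ _) (ind_le_one _ _)
    · have hx' : v ⊔ y ∈ Loᶜ := hx
      rw [ind_of_notMem hx, ind_of_mem hx', mul_one, mul_zero, zero_add]
      exact mul_le_of_le_one_left (ind_nonneg _ _) (ind_le_one _ _)
  have e2 : Pr s (fun v => Pr s (fun y => ind (Dn lev l p d s S τ η) v * ind Lo (v ⊔ y))) ≤
      η := by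
    have : ∀ v, Pr s (fun y => ind (Dn lev l p d s S τ η) v * ind Lo (v ⊔ y)) ≤ η := by
      intro v
      rw [Pr_mul]
      by_cases hv : v ∈ Dn lev l p d s S τ η
      · rw [ind_of_mem hv, one_mul]
        exact hv
      · rw [ind_of_notMem hv, zero_mul]
        exact hη
    calc _ ≤ Pr s (fun _ => η) := Pr_mono hs this
      _ = η := Pr_const s η
  have hdc : ∀ x y : E → Bool, (∀ e, lev e ≤ l → x e = y e) → ind Dᶜ x = ind Dᶜ y := by
    intro x y hxy
    refine Cyl.ind_eq (lev := lev) (l := l) ?_ hxy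
    intro A B hAB hA hB
    exact hA (hD B A (fun e he => (hAB e he).symm) hB)
  have e3 : Pr s (fun v => Pr s (fun y => ind Dᶜ (v ⊔ y) * ind Loᶜ (v ⊔ y))) =
      Pr c (fun x => ind Dᶜ x * ind Loᶜ x) :=
    Pr_sup s s c h3 (fun x => ind Dᶜ x * ind Loᶜ x)
  have e4 : Pr c (fun x => ind Dᶜ x * ind Loᶜ x) ≤
      Pr c (fun x => τ⁻¹ * (GG lev l s d S x * ind Dᶜ x)) := by
    refine Pr_mono hc fun x => ?_
    have h5 : GG lev l p d S x ≤ GG lev l s d S x := by
      refine Pr_mono hd fun h => ?_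
      refine Pr_rate_mono hs hd h2 fun w w' hw => ?_
      exact ind_monotone hS (mix_mono_right hw)
    have h6 : ind Loᶜ x ≤ τ⁻¹ * GG lev l s d S x := by
      by_cases hx : x ∈ Lo
      · have hx' : x ∉ Loᶜ := fun h => h hx
        rw [ind_of_notMem hx']
        exact mul_nonneg (inv_nonneg.2 hτ.le) (GG_nonneg hs hd S x)
      · have hx' : x ∈ Loᶜ := hx
        rw [ind_of_mem hx']
        have h7 : τ ≤ GG lev l p d S x := not_lt.1 hx
        rw [inv_mul_eq_div, one_le_div hτ]
        exact h7.trans h5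
    calc ind Dᶜ x * ind Loᶜ x ≤ ind Dᶜ x * (τ⁻¹ * GG lev l s d S x) :=
          mul_le_mul_of_nonneg_left h6 (ind_nonneg _ _)
      _ = τ⁻¹ * (GG lev l s d S x * ind Dᶜ x) := by ring
  have e5 : Pr c (fun x => GG lev l s d S x * ind Dᶜ x) =
      Pr s (fun v => Pr s (fun y => ind S v * ind Dᶜ (v ⊔ y))) := by
    rw [← resample lev l h4 S hdc]
    refine (thin s s c d (fun e => (h4 e).symm) (fun e => ?_)
          (fun v x => ind S v * ind Dᶜ x)).symm
    have := h3 e
    have := h4 e
    nlinarith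
  have e6 : Pr s (fun v => Pr s (fun y => ind S v * ind Dᶜ (v ⊔ y))) ≤
      Pr s (fun v => Pr s (fun y => ind S v * ind D'ᶜ (v ⊔ y))) + Pr c (ind (D' \ D)) := by
    rw [← Pr_sup s s c h3 (ind (D' \ D)), ← Pr_add]
    refine Pr_mono hs fun v => ?_
    rw [← Pr_add]
    refine Pr_mono hs fun y => ?_
    have h8 : ind Dᶜ (v ⊔ y) ≤ ind D'ᶜ (v ⊔ y) + ind (D' \ D) (v ⊔ y) := by
      by_cases hx : v ⊔ y ∈ D
      · have hx' : v ⊔ y ∉ Dᶜ := fun h => h hx
        rw [ind_of_notMem hx']
        exact add_nonneg (ind_nonneg _ _) (ind_nonneg _ _)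
      · by_cases hx2 : v ⊔ y ∈ D'
        · have : v ⊔ y ∈ D' \ D := ⟨hx2, hx⟩
          rw [ind_of_mem this]
          linarith [ind_le_one Dᶜ (v ⊔ y), ind_nonneg D'ᶜ (v ⊔ y)]
        · have : v ⊔ y ∈ D'ᶜ := hx2
          rw [ind_of_mem this]
          linarith [ind_le_one Dᶜ (v ⊔ y), ind_nonneg (D' \ D) (v ⊔ y)]
    calc ind S v * ind Dᶜ (v ⊔ y) ≤
        ind S v * (ind D'ᶜ (v ⊔ y) + ind (D' \ D) (v ⊔ y)) :=
          mul_le_mul_of_nonneg_left h8 (ind_nonneg _ _)
      _ = ind S v * ind D'ᶜ (v ⊔ y) + ind S v * ind (D' \ D) (v ⊔ y) := by ring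
      _ ≤ ind S v * ind D'ᶜ (v ⊔ y) + ind (D' \ D) (v ⊔ y) := by
          have := mul_le_of_le_one_left (ind_nonneg (D' \ D) (v ⊔ y)) (ind_le_one S v)
          linarith
  rw [Pr_mul, e5] at e4
  have e7 := mul_le_mul_of_nonneg_left e6 (inv_nonneg.2 hτ.le)
  rw [e3] at e1
  rw [div_eq_inv_mul]
  linarith

/-- the chain, for general rates -/
theorem chain (lev : E → ℕ) {p b d s c : E → ℝ} (hp : Rate p) (hb : Rate b)
    (hd : Rate d) (hs : Rate s) (hc : Rate c) (h1 : ∀ e, (1 - p e) * (1 - b e) = 1 - s e)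
    (h2 : ∀ e, s e * d e = p e)
    (h3 : ∀ e, (1 - s e) * (1 - s e) = 1 - c e) (h4 : ∀ e, c e * d e = s e)
    (D : ℕ → Set (E → Bool)) (hcyl : ∀ l, Cyl lev l (D l))
    (τ η δ ε : ℕ → ℝ) (hτ : ∀ l, 0 < τ l) (hη : ∀ l, 0 < η l)
    (hε0 : Pr c (ind (D 0)) ≤ ε 0) (n : ℕ)
    (hε : ∀ l < n, Pr c (ind (D (l + 1) \ D l)) ≤ ε (l + 1))
    (hrec : ∀ l < n, η l + (δ (l + 1) + ε (l + 1)) / τ (l + 1) ≤ δ l)
    (S : Set (E → Bool)) (hS : IsUpperSet S) (hScyl : Cyl lev n S)
    (hSδ : Pr s (fun v => Pr s (fun y => ind S v * ind (D n)ᶜ (v ⊔ y))) ≤ δ n) :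
    ∃ L : ℕ → Set (E → Bool), (∀ l, IsUpperSet (L l)) ∧ (∀ l, Cyl lev l (L l)) ∧
      (∀ A ∈ S, ∃ l ≤ n, A ∈ L l) ∧ Pr p (ind (L 0)) ≤ δ 0 + ε 0 ∧
      ∀ l < n, Pr p (ind (L (l + 1))) ≤ τ (l + 1) / η l := by
  induction n generalizing S with
  | zero =>
    refine ⟨fun l => if l = 0 then S else ∅, ?_, ?_, ?_, ?_, ?_⟩
    · intro l
      by_cases hl : l = 0
      · simpa [hl] using hS
      · simpa [hl] using isUpperSet_empty
    · intro l
      by_cases hl : l = 0
      · subst hl
        simpa using hScyl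
      · intro A B _ hA
        simp [hl] at hA
    · intro A hA
      exact ⟨0, le_rfl, by simpa using hA⟩
    · have e1 : Pr p (ind S) ≤ Pr s (ind S) := Pr_rate_mono hs hd h2 (ind_monotone hS)
      have e2 : Pr s (ind S) ≤
          Pr s (fun v => Pr s (fun y => ind S v * ind (D 0)ᶜ (v ⊔ y))) +
            Pr c (ind (D 0)) := by
        rw [← Pr_sup s s c h3 (ind (D 0)), ← Pr_add]
        refine Pr_mono hs fun v => ?_
        rw [← Pr_add, ← Pr_const s (ind S v)]
        refine Pr_mono hs fun y => ?_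
        rw [Pr_const]
        by_cases hx : v ⊔ y ∈ D 0
        · have hx' : v ⊔ y ∉ (D 0)ᶜ := fun h => h hx
          rw [ind_of_notMem hx', ind_of_mem hx]
          linarith [ind_le_one S v]
        · have hx' : v ⊔ y ∈ (D 0)ᶜ := hx
          rw [ind_of_mem hx', ind_of_notMem hx]
          linarith
      simp only [if_true]
      linarith
    · intro l hl
      omega
  | succ n ih =>
    set S' := Dn lev n p d s S (τ (n + 1)) (η n) with hS'
    have hS'u : IsUpperSet S' := Dn_upper hp hd hs hS _ _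
    have hS'c : Cyl lev n S' := Dn_cyl p d s S _ _
    have hst := step lev n (D := D n) (D' := D (n + 1)) hd hs hc h2 h3 h4 hS (hcyl n)
      (hτ (n + 1)) (hη n).le
    have hbd : Pr s (fun v => Pr s (fun y => ind S' v * ind (D n)ᶜ (v ⊔ y))) ≤ δ n := by
      refine hst.trans (le_trans ?_ (hrec n (Nat.lt_succ_self n)))
      have e8 := add_le_add hSδ (hε n (Nat.lt_succ_self n))
      have e9 := div_le_div_of_nonneg_right e8 (hτ (n + 1)).le
      linarith
    obtain ⟨L, hLu, hLc, hLS, hL0, hLm⟩ := ih (fun l hl => hε l (by omega))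
      (fun l hl => hrec l (by omega)) S' hS'u hS'c hbd
    refine ⟨fun l => if l = n + 1 then up (S \ S') else L l, ?_, ?_, ?_, ?_, ?_⟩
    · intro l
      by_cases hl : l = n + 1
      · simp only [hl, if_true]
        exact up_upper _
      · simp only [hl, if_false]
        exact hLu l
    · intro l
      by_cases hl : l = n + 1
      · simp only [hl, if_true]
        rintro A B hAB ⟨K, hK, hKA⟩
        refine ⟨mix lev (n + 1) K B, ⟨?_, ?_⟩, ?_⟩
        · refine hScyl K _ (fun e he => ?_) hK.1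
          simp [mix, he]
        · intro hh
          refine hK.2 (hS'c _ K (fun e he => ?_) hh)
          have : lev e ≤ n + 1 := by omega
          simp [mix, this]
        · intro e
          unfold mix
          split_ifs with he
          · rw [← hAB e he]
            exact hKA e
          · exact le_rfl
      · simp only [hl, if_false]
        exact hLc l
    · intro A hA
      by_cases hA' : A ∈ S'
      · obtain ⟨l, hl, hAl⟩ := hLS A hA'
        refine ⟨l, by omega, ?_⟩
        have : l ≠ n + 1 := by omega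
        simpa [this] using hAl
      · refine ⟨n + 1, le_rfl, ?_⟩
        simp only [if_true]
        exact ⟨A, ⟨hA, hA'⟩, le_rfl⟩
    · have : (0 : ℕ) ≠ n + 1 := by omega
      simpa [this] using hL0
    · intro l hl
      by_cases hln : l = n
      · subst hln
        simp only [if_true]
        rw [le_div_iff₀ (hη l), mul_comm]
        exact mass lev l hp hb hd hs h1 h2 hS (hτ (l + 1)).le (η l)
      · have : l + 1 ≠ n + 1 := by omega
        simp only [this, if_false]
        exact hLm l (by omega)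

/-- the total rate -/
noncomputable def tot (p : E → ℝ) : E → ℝ := fun e => 4 * p e / (1 + p e) ^ 2

/-- **(CC')**, general numbers: `D n` is in the union of the cheap up-sets `L l`, `l ≤ n` -/
theorem cc_gen (lev : E → ℕ) {p : E → ℝ} (hp : Rate p)
    (D : ℕ → Set (E → Bool)) (hD : ∀ l, IsUpperSet (D l)) (hcyl : ∀ l, Cyl lev l (D l))
    (τ η δ ε : ℕ → ℝ) (hτ : ∀ l, 0 < τ l) (hη : ∀ l, 0 < η l)
    (hε0 : Pr (tot p) (ind (D 0)) ≤ ε 0) (n : ℕ)
    (hε : ∀ l < n, Pr (tot p) (ind (D (l + 1) \ D l)) ≤ ε (l + 1))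
    (hrec : ∀ l < n, η l + (δ (l + 1) + ε (l + 1)) / τ (l + 1) ≤ δ l)
    (hδ : 0 ≤ δ n) :
    ∃ L : ℕ → Set (E → Bool), (∀ l, IsUpperSet (L l)) ∧ (∀ l, Cyl lev l (L l)) ∧
      (∀ A ∈ D n, ∃ l ≤ n, A ∈ L l) ∧ Pr p (ind (L 0)) ≤ δ 0 + ε 0 ∧
      ∀ l < n, Pr p (ind (L (l + 1))) ≤ τ (l + 1) / η l := by
  have hpos : ∀ e, 0 < 1 + p e := fun e => by linarith [(hp e).1]
  refine chain lev (p := p) (b := fun e => p e / (1 + p e)) (d := fun e => (1 + p e) / 2)
    (s := fun e => 2 * p e / (1 + p e)) (c := tot p) hp ?_ ?_ ?_ ?_ ?_ ?_ ?_ ?_ D hcyl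
    τ η δ ε hτ hη hε0 n hε hrec (D n) (hD n) (hcyl n) ?_
  · intro e
    have := hp e
    have := hpos e
    constructor
    · exact div_nonneg (hp e).1 this.le
    · rw [div_le_one this]
      linarith
  · intro e
    have := hp e
    constructor
    · linarith
    · linarith
  · intro e
    have h1 := hp e
    have := hpos e
    constructor
    · exact div_nonneg (by linarith [(hp e).1]) this.le
    · rw [div_le_one this]
      linarith
  · intro e
    have h1 := hp e
    have := hpos e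
    constructor
    · exact div_nonneg (by linarith [(hp e).1]) (sq_nonneg _)
    · rw [tot, div_le_one (by positivity)]
      nlinarith [sq_nonneg (1 - p e)]
  · intro e
    have := hpos e
    field_simp
    ring
  · intro e
    have := hpos e
    field_simp
  · intro e
    have := hpos e
    rw [tot]
    field_simp
    ring
  · intro e
    have := hpos e
    rw [tot]
    field_simp
    ring
  · have h0 : ∀ v y : E → Bool, ind (D n) v * ind (D n)ᶜ (v ⊔ y) = 0 := by
      intro v y
      by_cases hv : v ∈ D n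
      · have : v ⊔ y ∉ (D n)ᶜ := fun h => h (hD n le_sup_left hv)
        rw [ind_of_notMem this, mul_zero]
      · rw [ind_of_notMem hv, zero_mul]
    simp only [h0, Pr_const]
    exact hδ

/-- **(CC')**: levels `a (l + 1) ≥ 8 * a l`, all levels at once, total rate
`4 p / (1 + p) ^ 2`. -/
theorem cc (lev : E → ℕ) {p : E → ℝ} (hp : Rate p)
    (D : ℕ → Set (E → Bool)) (hD : ∀ l, IsUpperSet (D l)) (hcyl : ∀ l, Cyl lev l (D l))
    (a : ℕ → ℝ) (ha0 : 1 ≤ a 0) (ha : ∀ l, 8 * a l ≤ a (l + 1))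
    (h0 : Pr (tot p) (ind (D 0)) ≤ (2 : ℝ) ^ (-(4 * a 0))) (n : ℕ)
    (hstep : ∀ l < n, Pr (tot p) (ind (D (l + 1) \ D l)) ≤ (2 : ℝ) ^ (-(4 * a (l + 1)))) :
    ∃ L : ℕ → Set (E → Bool), (∀ l, IsUpperSet (L l)) ∧ (∀ l, Cyl lev l (L l)) ∧
      (∀ A ∈ D n, ∃ l ≤ n, A ∈ L l) ∧
      ∀ l ≤ n, Pr p (ind (L l)) ≤ (2 : ℝ) ^ (-(a l)) := by
  have ha1 : ∀ l, 1 ≤ a l := by
    intro l
    induction l with
    | zero => exact ha0
    | succ l ih => linarith [ha l]
  have h2 : (0 : ℝ) < 2 := two_pos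
  have hle : ∀ x y : ℝ, x ≤ y → (2 : ℝ) ^ x ≤ (2 : ℝ) ^ y :=
    fun x y h => Real.rpow_le_rpow_of_exponent_le one_le_two h
  have htwo : ∀ x : ℝ, (2 : ℝ) ^ x + (2 : ℝ) ^ x = (2 : ℝ) ^ (x + 1) := by
    intro x
    rw [Real.rpow_add h2, Real.rpow_one]
    ring
  obtain ⟨L, hLu, hLc, hLS, hL0, hLm⟩ := cc_gen lev hp D hD hcyl
    (fun l => (2 : ℝ) ^ (-(2 * a l))) (fun l => (2 : ℝ) ^ (-(8 * a l) + a l))
    (fun l => (2 : ℝ) ^ (-(4 * a l))) (fun l => (2 : ℝ) ^ (-(4 * a l)))
    (fun l => Real.rpow_pos_of_pos h2 _) (fun l => Real.rpow_pos_of_pos h2 _) h0 n hstep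
    (by
      intro l _
      have e1 : ((2 : ℝ) ^ (-(4 * a (l + 1))) + (2 : ℝ) ^ (-(4 * a (l + 1)))) /
          (2 : ℝ) ^ (-(2 * a (l + 1))) = (2 : ℝ) ^ (-(2 * a (l + 1)) + 1) := by
        rw [htwo, ← Real.rpow_sub h2]
        congr 1
        ring
      rw [e1]
      have e2 : (2 : ℝ) ^ (-(8 * a l) + a l) ≤ (2 : ℝ) ^ (-(4 * a l) - 1) :=
        hle _ _ (by linarith [ha1 l])
      have e3 : (2 : ℝ) ^ (-(2 * a (l + 1)) + 1) ≤ (2 : ℝ) ^ (-(4 * a l) - 1) :=
        hle _ _ (by linarith [ha1 l, ha l])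
      have e4 := htwo (-(4 * a l) - 1)
      rw [sub_add_cancel] at e4
      linarith)
    (Real.rpow_pos_of_pos h2 _).le
  refine ⟨L, hLu, hLc, hLS, ?_⟩
  intro l hl
  rcases l with _ | l
  · refine hL0.trans ?_
    rw [htwo]
    exact hle _ _ (by linarith)
  · refine (hLm l (by omega)).trans ?_
    rw [← Real.rpow_sub h2]
    exact hle _ _ (by linarith [ha1 l, ha l])

end

end Vale.Agent.P331.H619
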